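import Vale.Agent.Lib.P125.Defs

namespace Vale.Agent.P125

open Filter Topology

/-- Markov type passes to isometrically embedded spaces. -/
theorem MarkovType.of_isometry {X Y : Type*} [NormedAddCommGroup X] [NormedAddCommGroup Y]
    [NormedSpace ℝ X] [NormedSpace ℝ Y] (L : X →ₗ[ℝ] Y) (hL : ∀ x, ‖L x‖ = ‖x‖) {p K : ℝ}
    (h : MarkovType Y p K) : MarkovType X p K := by
  intro n c f t ht
  have key : ∀ s : ℕ, c.disp (fun i => L (f i)) p s = c.disp f p s := by
    intro s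
    unfold RevChain.disp
    refine Finset.sum_congr rfl fun i _ => Finset.sum_congr rfl fun j _ => ?_
    rw [← map_sub, hL]
  have := h n c (fun i => L (f i)) t ht
  rwa [key, key] at this

/-- Renormings pull back along isometric linear embeddings. -/
theorem UCRenorm.of_isometry {X Y : Type*} [NormedAddCommGroup X] [NormedAddCommGroup Y]
    [NormedSpace ℝ X] [NormedSpace ℝ Y] (L : X →ₗ[ℝ] Y) (hL : ∀ x, ‖L x‖ = ‖x‖) {a b : ℝ}
    {δ : ℝ → ℝ} (h : UCRenorm Y a b δ) : UCRenorm X a b δ := by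
  obtain ⟨N, hN, hU⟩ := h
  refine ⟨N.comp L, fun x => ?_, fun ε x y hε hx hy hxy => ?_⟩
  · have := hN (L x)
    rw [hL] at this
    simpa using this
  · have := hU ε (L x) (L y) hε (by simpa using hx) (by simpa using hy)
      (by simpa [map_sub] using hxy)
    simpa [map_add, map_smul] using this

theorem superreflexive_iff {X : Type*} [NormedAddCommGroup X] [NormedSpace ℝ X] :
    Superreflexive X ↔ ∃ (a b : ℝ) (δ : ℝ → ℝ), 0 < a ∧ 0 < b ∧ (∀ ε, 0 < ε → 0 < δ ε) ∧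
      UCRenorm X a b δ := by
  constructor
  · rintro ⟨N, ⟨a, b, ha, hb, hab⟩, hU⟩
    classical
    have hU' : ∀ ε : ℝ, ∃ δ : ℝ, 0 < δ ∧ (0 < ε → ∀ x y : X, N x ≤ 1 → N y ≤ 1 → ε ≤ N (x - y) →
        N ((1 / 2 : ℝ) • (x + y)) ≤ 1 - δ) := by
      intro ε
      by_cases h1 : 0 < ε ∧ ε ≤ 2
      · obtain ⟨δ, hδ, h⟩ := hU ε h1.1 h1.2
        exact ⟨δ, hδ, fun _ => h⟩
      · refine ⟨1, one_pos, fun hε x y hx hy hxy => ?_⟩
        exfalso
        have h2 : (2 : ℝ) < ε := by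
          by_contra hcon
          exact h1 ⟨hε, not_lt.mp hcon⟩
        have h3 : N (x - y) ≤ N x + N y := map_sub_le_add N x y
        linarith
    choose δ hδ hδU using hU'
    exact ⟨a, b, δ, ha, hb, fun ε _ => hδ ε, N, hab, fun ε x y hε => hδU ε hε x y⟩
  · rintro ⟨a, b, δ, ha, hb, hδ, N, hab, hU⟩
    exact ⟨N, ⟨a, b, ha, hb, hab⟩, fun ε hε _ => ⟨δ ε, hδ ε hε, fun x y => hU ε x y hε⟩⟩

end Vale.Agent.P125
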