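import Mathlib

/-!
# P125: Markov type and superreflexivity -- definitions

Stationary reversible finite Markov chains, Markov type `p` with constant `K`,
equivalent uniformly convex norms (with prescribed equivalence constants and modulus),
superreflexivity (existence of an equivalent uniformly convex norm).
-/

namespace Vale.Agent.P125

/-- A stationary reversible Markov chain on the finite state space `Fin n`:
initial (stationary) distribution `π`, transition matrix `P`, detailed balance `rev`. -/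
structure RevChain (n : ℕ) where
  π : Fin n → ℝ
  P : Matrix (Fin n) (Fin n) ℝ
  π_nonneg : ∀ i, 0 ≤ π i
  π_sum : ∑ i, π i = 1
  P_nonneg : ∀ i j, 0 ≤ P i j
  P_sum : ∀ i, ∑ j, P i j = 1
  rev : ∀ i j, π i * P i j = π j * P j i

/-- `E ‖f(Z_t) - f(Z_0)‖ ^ p` for the chain started from `π`. -/
noncomputable def RevChain.disp {n : ℕ} (c : RevChain n) {X : Type*} [NormedAddCommGroup X]
    (f : Fin n → X) (p : ℝ) (t : ℕ) : ℝ :=
  ∑ i, ∑ j, c.π i * (c.P ^ t) i j * ‖f j - f i‖ ^ p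

/-- `X` has Markov type `p` with constant `K` (Ball). -/
def MarkovType (X : Type*) [NormedAddCommGroup X] (p K : ℝ) : Prop :=
  ∀ (n : ℕ) (c : RevChain n) (f : Fin n → X) (t : ℕ), 1 ≤ t →
    c.disp f p t ≤ K ^ p * t * c.disp f p 1

/-- `X` carries a norm `N` with `a ‖x‖ ≤ N x ≤ b ‖x‖` which is uniformly convex with
modulus `δ`: `N x, N y ≤ 1`, `N (x - y) ≥ ε` imply `N ((x + y) / 2) ≤ 1 - δ ε`. -/
def UCRenorm (X : Type*) [NormedAddCommGroup X] [NormedSpace ℝ X] (a b : ℝ) (δ : ℝ → ℝ) : Prop :=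
  ∃ N : Seminorm ℝ X, (∀ x, a * ‖x‖ ≤ N x ∧ N x ≤ b * ‖x‖) ∧
    ∀ (ε : ℝ) (x y : X), 0 < ε → N x ≤ 1 → N y ≤ 1 → ε ≤ N (x - y) →
      N ((1 / 2 : ℝ) • (x + y)) ≤ 1 - δ ε

/-- `X` admits an equivalent uniformly convex norm. -/
def Superreflexive (X : Type*) [NormedAddCommGroup X] [NormedSpace ℝ X] : Prop :=
  ∃ N : Seminorm ℝ X, (∃ a b : ℝ, 0 < a ∧ 0 < b ∧ ∀ x, a * ‖x‖ ≤ N x ∧ N x ≤ b * ‖x‖) ∧
    ∀ ε : ℝ, 0 < ε → ε ≤ 2 → ∃ δ : ℝ, 0 < δ ∧ ∀ x y : X, N x ≤ 1 → N y ≤ 1 → ε ≤ N (x - y) →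
      N ((1 / 2 : ℝ) • (x + y)) ≤ 1 - δ

end Vale.Agent.P125
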