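import Vale.Agent.Lib.P125.Basic

namespace Vale.Agent.P125

open Filter Topology

/-- Gluing: if all finite-dimensional subspaces of `X` have `(a, b, δ)`-renormings then `X` has
an `(a, b, δ (· / 2))`-renorming (limit of the local norms along an ultrafilter). -/
theorem UCRenorm.of_finiteDimensional {X : Type*} [NormedAddCommGroup X] [NormedSpace ℝ X]
    {a b : ℝ} {δ : ℝ → ℝ} (hb : 0 ≤ b)
    (h : ∀ F : Submodule ℝ X, FiniteDimensional ℝ F → UCRenorm F a b δ) :
    UCRenorm X a b (fun ε => δ (ε / 2)) := by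
  classical
  let ι := {F : Submodule ℝ X // FiniteDimensional ℝ F}
  have : Nonempty ι := ⟨⟨⊥, inferInstance⟩⟩
  have : IsDirected ι (· ≤ ·) := ⟨fun F G => by
    have := F.2
    have := G.2
    exact ⟨⟨F.1 ⊔ G.1, inferInstance⟩, le_sup_left (a := F.1), le_sup_right (b := G.1)⟩⟩
  let U : Ultrafilter ι := Ultrafilter.of atTop
  have hU : (U : Filter ι) ≤ atTop := Ultrafilter.of_le atTop
  have hmem : ∀ x : X, ∀ᶠ F : ι in (U : Filter ι), x ∈ F.1 := by
    intro x
    refine hU ?_
    have : ∀ᶠ F : ι in atTop, (⟨Submodule.span ℝ {x}, inferInstance⟩ : ι) ≤ F :=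
      eventually_ge_atTop _
    filter_upwards [this] with F hF
    exact hF (Submodule.mem_span_singleton_self x)
  have h' : ∀ F : ι, UCRenorm F.1 a b δ := fun F => h F.1 F.2
  choose N hN hUC using h'
  let g : X → ι → ℝ := fun x F => if hx : x ∈ F.1 then N F ⟨x, hx⟩ else 0
  have hg : ∀ (x : X) (F : ι) (hx : x ∈ F.1), g x F = N F ⟨x, hx⟩ := by
    intro x F hx
    simp only [g, dif_pos hx]
  have hbound : ∀ (x : X) (F : ι), g x F ∈ Set.Icc (0 : ℝ) (b * ‖x‖) := by
    intro x F
    by_cases hx : x ∈ F.1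
    · rw [hg x F hx]
      exact ⟨apply_nonneg _ _, by simpa using (hN F ⟨x, hx⟩).2⟩
    · simp only [g, dif_neg hx]
      exact ⟨le_rfl, by positivity⟩
  have hex : ∀ x : X, ∃ L : ℝ, Tendsto (g x) (U : Filter ι) (𝓝 L) := by
    intro x
    have hc : IsCompact (Set.Icc (0 : ℝ) (b * ‖x‖)) := isCompact_Icc
    have : ((U.map (g x) : Ultrafilter ℝ) : Filter ℝ) ≤ 𝓟 (Set.Icc (0 : ℝ) (b * ‖x‖)) := by
      rw [le_principal_iff]
      exact Filter.mem_map.mpr (Filter.Eventually.of_forall (hbound x))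
    obtain ⟨L, _, hL⟩ := hc.ultrafilter_le_nhds _ this
    exact ⟨L, hL⟩
  choose M hM using hex
  have hadd : ∀ x y, M (x + y) ≤ M x + M y := by
    intro x y
    refine le_of_tendsto_of_tendsto (hM (x + y)) ((hM x).add (hM y)) ?_
    filter_upwards [hmem x, hmem y] with F hx hy
    rw [hg x F hx, hg y F hy, hg (x + y) F (F.1.add_mem hx hy)]
    exact map_add_le_add (N F) ⟨x, hx⟩ ⟨y, hy⟩
  have hsmul : ∀ (r : ℝ) (x : X), M (r • x) = ‖r‖ * M x := by
    intro r x
    refine tendsto_nhds_unique (hM (r • x)) (((hM x).const_mul ‖r‖).congr' ?_)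
    filter_upwards [hmem x] with F hx
    rw [hg x F hx, hg (r • x) F (F.1.smul_mem r hx)]
    exact (map_smul_eq_mul (N F) r ⟨x, hx⟩).symm
  refine ⟨Seminorm.of M hadd hsmul, fun x => ⟨?_, ?_⟩, ?_⟩
  · change a * ‖x‖ ≤ M x
    refine ge_of_tendsto (hM x) ?_
    filter_upwards [hmem x] with F hx
    rw [hg x F hx]
    simpa using (hN F ⟨x, hx⟩).1
  · change M x ≤ b * ‖x‖
    exact le_of_tendsto (hM x) (Filter.Eventually.of_forall fun F => (hbound x F).2)
  · intro ε x y hε hx hy hxy
    change M x ≤ 1 at hx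
    change M y ≤ 1 at hy
    change ε ≤ M (x - y) at hxy
    change M ((1 / 2 : ℝ) • (x + y)) ≤ 1 - δ (ε / 2)
    set d : ℝ := 1 - δ (ε / 2) with hd
    -- the estimate with a loss `η`
    have main : ∀ η : ℝ, 0 < η → η ≤ ε / (2 + ε) → M ((1 / 2 : ℝ) • (x + y)) ≤ (1 + η) * d := by
      intro η hη hηε
      refine le_of_tendsto (hM _) ?_
      have e1 : ∀ᶠ F in (U : Filter ι), g x F < 1 + η :=
        (hM x).eventually_lt_const (by linarith)
      have e2 : ∀ᶠ F in (U : Filter ι), g y F < 1 + η :=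
        (hM y).eventually_lt_const (by linarith)
      have e3 : ∀ᶠ F in (U : Filter ι), ε - η < g (x - y) F :=
        (hM (x - y)).eventually_const_lt (by linarith)
      filter_upwards [hmem x, hmem y, e1, e2, e3] with F hxF hyF h1 h2 h3
      rw [hg x F hxF] at h1
      rw [hg y F hyF] at h2
      rw [hg (x - y) F (F.1.sub_mem hxF hyF)] at h3
      rw [hg _ F (F.1.smul_mem _ (F.1.add_mem hxF hyF))]
      have hpos : (0 : ℝ) < 1 + η := by linarith
      set s : ℝ := (1 + η)⁻¹ with hs
      have hspos : 0 < s := inv_pos.mpr hpos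
      have hs1 : s * (1 + η) = 1 := inv_mul_cancel₀ hpos.ne'
      let x' : F.1 := ⟨x, hxF⟩
      let y' : F.1 := ⟨y, hyF⟩
      have hsm : ∀ z : F.1, N F (s • z) = s * N F z := by
        intro z
        rw [map_smul_eq_mul, Real.norm_of_nonneg hspos.le]
      have a1 : N F (s • x') ≤ 1 := by
        rw [hsm]
        calc s * N F x' ≤ s * (1 + η) := by
              exact mul_le_mul_of_nonneg_left h1.le hspos.le
          _ = 1 := hs1
      have a2 : N F (s • y') ≤ 1 := by
        rw [hsm]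
        calc s * N F y' ≤ s * (1 + η) := by
              exact mul_le_mul_of_nonneg_left h2.le hspos.le
          _ = 1 := hs1
      have h3' : ε - η < N F (x' - y') := h3
      have hkey : ε / 2 * (1 + η) ≤ ε - η := by
        have h2e : 0 < 2 + ε := by linarith
        have : η * (2 + ε) ≤ ε := by
          rwa [le_div_iff₀ h2e] at hηε
        nlinarith
      have a3 : ε / 2 ≤ N F (s • x' - s • y') := by
        rw [← smul_sub, hsm]
        calc ε / 2 = s * (ε / 2 * (1 + η)) := by
              rw [mul_comm (ε / 2), ← mul_assoc, hs1, one_mul]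
          _ ≤ s * N F (x' - y') := by
              exact mul_le_mul_of_nonneg_left (hkey.trans h3'.le) hspos.le
      have a4 := hUC F (ε / 2) (s • x') (s • y') (by linarith) a1 a2 a3
      have a5 : (1 / 2 : ℝ) • (s • x' + s • y') = s • ((1 / 2 : ℝ) • (x' + y')) := by
        rw [← smul_add, smul_comm]
      rw [a5, hsm] at a4
      have a6 : N F ((1 / 2 : ℝ) • (x' + y')) = (1 + η) * (s * N F ((1 / 2 : ℝ) • (x' + y'))) := by
        rw [← mul_assoc, mul_comm (1 + η), hs1, one_mul]
      have a7 : (⟨(1 / 2 : ℝ) • (x + y), F.1.smul_mem _ (F.1.add_mem hxF hyF)⟩ : F.1)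
          = (1 / 2 : ℝ) • (x' + y') := rfl
      rw [a7, a6]
      exact mul_le_mul_of_nonneg_left a4 hpos.le
    -- let `η → 0`
    refine le_of_forall_pos_le_add fun e he => ?_
    have h2e : 0 < ε / (2 + ε) := by positivity
    set η : ℝ := min (ε / (2 + ε)) (e / (|d| + 1)) with hη
    have hη0 : 0 < η := lt_min h2e (by positivity)
    have h1 := main η hη0 (min_le_left _ _)
    have h2 : η * d ≤ e := by
      have h3 : η ≤ e / (|d| + 1) := min_le_right _ _
      have h4 : η * (|d| + 1) ≤ e := by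
        rwa [le_div_iff₀ (by positivity)] at h3
      have h5 : d ≤ |d| := le_abs_self d
      nlinarith
    linarith

end Vale.Agent.P125
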