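import Vale.Agent.Lib.P125.Basic

namespace Vale.Agent.P125

open Filter Topology

/-- The `ℓ_p`-sum of spaces with Markov type `p`, constant `K`, has Markov type `p`,
constant `K`. -/
theorem MarkovType.lp_sum {ι : Type*} {E : ι → Type*} [∀ i, NormedAddCommGroup (E i)]
    {p K : ℝ} (hp : 1 ≤ p) [Fact (1 ≤ ENNReal.ofReal p)]
    (h : ∀ i, MarkovType (E i) p K) : MarkovType (lp E (ENNReal.ofReal p)) p K := by
  intro n c F t ht
  have hp0 : 0 < p := by linarith
  have htr : (ENNReal.ofReal p).toReal = p := ENNReal.toReal_ofReal hp0.le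
  have key : ∀ s : ℕ, HasSum (fun k => c.disp (fun i => F i k) p s) (c.disp F p s) := by
    intro s
    unfold RevChain.disp
    refine hasSum_sum fun i _ => hasSum_sum fun j _ => ?_
    have h1 := lp.hasSum_norm (p := ENNReal.ofReal p) (by rw [htr]; exact hp0) (F j - F i)
    rw [htr] at h1
    have h2 := h1.mul_left (c.π i * (c.P ^ s) i j)
    simpa using h2
  have h1 := key t
  have h2 := (key 1).mul_left (K ^ p * t)
  exact hasSum_le (fun k => h k n c (fun i => F i k) t ht) h1 h2

end Vale.Agent.P125
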